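import Vale.Agent.H30.GenK.Prism
import Vale.Agent.H9.GenK.Packing

/-!
# LEMMA P of the general-K project (P243): the set near the sharp points is small

`lemma_P` : let `K` be a compact convex set of `E3` containing the ball `B(c, rho)`, and let `Z`
be any set of points `e` of `K` that are `(s, eta)`-sharp: there are unit vectors `xi1`, `xi2`
with `s ^ 2 <= 1 - <xi1, xi2> ^ 2` and the two caps `<xi_i, y - e> <= eta` for all `y` in `K`.
If `0 < d0 <= rho` and `2 rho eta <= d0 ^ 2`, there is a compact `N` in `K` containing every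
point of `K` within `d0` of `Z`, of volume at most `4500 pi d0 ^ 2 / (s rho ^ 2)` times the
volume of `K`.

`lemma_P_sqrt` : the same with `d0 = sqrt (2 rho eta)` (`0 < eta`, `2 eta <= rho`): volume at
most `9000 pi eta / (s rho)` times the volume of `K`.

Proof: nearest-point argument (`Nearest.lean`), the prisms `Sig e` (`Prism.lean`) and
helper9's packing count (`Vale.Agent.H9.GenK.exists_cover_set`).
-/

open MeasureTheory Set
open scoped ENNReal RealInnerProductSpace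

namespace Vale.Agent.H30.GenK

open Vale.Agent.H5.P243

theorem lemma_P (K : Set E3) (hKconv : Convex ℝ K) (hKcomp : IsCompact K) (c : E3)
    (rho s d0 eta : ℝ) (hball : Metric.closedBall c rho ⊆ K) (hs : 0 < s) (hd0 : 0 < d0)
    (hd0rho : d0 ≤ rho) (hrd : 2 * rho * eta ≤ d0 ^ 2) (Z : Set E3)
    (hZ : ∀ e ∈ Z, e ∈ K ∧ ∃ xi1 xi2 : E3, ‖xi1‖ = 1 ∧ ‖xi2‖ = 1 ∧
      s ^ 2 ≤ 1 - (inner ℝ xi1 xi2) ^ 2 ∧
      (∀ y ∈ K, inner ℝ xi1 (y - e) ≤ eta) ∧ (∀ y ∈ K, inner ℝ xi2 (y - e) ≤ eta)) :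
    ∃ N : Set E3, IsCompact N ∧ N ⊆ K ∧ (∀ x ∈ K, ∀ e ∈ Z, dist x e ≤ d0 → x ∈ N) ∧
      volume N ≤ ENNReal.ofReal (4500 * Real.pi * d0 ^ 2 / (s * rho ^ 2)) * volume K := by
  have hrho : 0 < rho := lt_of_lt_of_le hd0 hd0rho
  have hZK : ∀ e ∈ Z, e ∈ K := fun e he => (hZ e he).1
  have hZ' : ∀ e : E3, e ∈ Z → ∃ xi1 xi2 : E3, ‖xi1‖ = 1 ∧ ‖xi2‖ = 1 ∧
      s ^ 2 ≤ 1 - (inner ℝ xi1 xi2) ^ 2 ∧
      (∀ y ∈ K, inner ℝ xi1 (y - e) ≤ eta) ∧ (∀ y ∈ K, inner ℝ xi2 (y - e) ≤ eta) :=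
    fun e he => (hZ e he).2
  choose! xi1 xi2 hxi using hZ'
  choose mu hmu using fun e : E3 => exists_unit_orth (xi1 e) (xi2 e)
  have hv0 : ENNReal.ofReal (s * rho ^ 2 * d0) ≠ 0 := by
    rw [Ne, ENNReal.ofReal_eq_zero, not_le]
    positivity
  have hv0top : ENNReal.ofReal (s * rho ^ 2 * d0) ≠ ⊤ := ENNReal.ofReal_ne_top
  have hKtop : volume K ≠ ⊤ := hKcomp.measure_lt_top.ne
  have hA : volume (AffineMap.homothety c (3 : ℝ) '' K) ≠ ⊤ := by
    rw [volume_homothety_three]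
    exact ENNReal.mul_ne_top (by norm_num) hKtop
  obtain ⟨N, hNc, hNK, hNnear, hNvol⟩ :=
    Vale.Agent.H9.GenK.exists_cover_set (K := K) (Z := Z)
      (A := AffineMap.homothety c (3 : ℝ) '' K) hKcomp
      (fun e => Sig e (xi1 e) (xi2 e) (mu e) rho d0) hv0 hA hd0.le
      (fun e _ => sig_measurable e (xi1 e) (xi2 e) (mu e) rho d0)
      (fun e he => sig_subset_homothety K hKconv c e (xi1 e) (xi2 e) (mu e) rho d0 hball
        (hZK e he) (hxi e he).1 (hxi e he).2.1 (hmu e).1 hd0rho)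
      (fun e he => sector_volume e (xi1 e) (xi2 e) (mu e) s rho d0 (hxi e he).1 (hxi e he).2.1
        (hmu e).1 (hmu e).2.1 (hmu e).2.2 hs.le (hxi e he).2.2.1 hrho.le)
      (fun e he e' he' hne => sig_apart K hKcomp.isClosed hKconv e e' (xi1 e) (xi2 e) (mu e)
        (xi1 e') (xi2 e') (mu e') rho d0 eta (hZK e he) (hZK e' he') (hmu e).1 (hmu e').1
        (hxi e he).2.2.2.1 (hxi e he).2.2.2.2 (hxi e' he').2.2.2.1 (hxi e' he').2.2.2.2
        hd0.le hrd hne)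
  refine ⟨N, hNc, hNK, hNnear, ?_⟩
  rw [volume_homothety_three] at hNvol
  have hconst : ENNReal.ofReal (s * rho ^ 2 * d0) *
      (ENNReal.ofReal (4500 * Real.pi * d0 ^ 2 / (s * rho ^ 2)) * volume K)
      = 27 * volume K * ENNReal.ofReal (4 / 3 * Real.pi * (5 * d0) ^ 3) := by
    rw [← mul_assoc, ← ENNReal.ofReal_mul (by positivity)]
    have h27 : (27 : ℝ≥0∞) = ENNReal.ofReal 27 := by norm_num
    rw [h27, mul_comm (ENNReal.ofReal 27) (volume K), mul_assoc (volume K),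
      ← ENNReal.ofReal_mul (by norm_num), mul_comm (volume K)]
    congr 2
    field_simp
    ring
  have h2 : ENNReal.ofReal (s * rho ^ 2 * d0) * volume N ≤ ENNReal.ofReal (s * rho ^ 2 * d0) *
      (ENNReal.ofReal (4500 * Real.pi * d0 ^ 2 / (s * rho ^ 2)) * volume K) := by
    rw [hconst, mul_comm]
    exact hNvol
  exact (ENNReal.mul_le_mul_iff_right hv0 hv0top).1 h2

theorem lemma_P_sqrt (K : Set E3) (hKconv : Convex ℝ K) (hKcomp : IsCompact K) (c : E3)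
    (rho s eta : ℝ) (hball : Metric.closedBall c rho ⊆ K) (hs : 0 < s) (heta : 0 < eta)
    (hetarho : 2 * eta ≤ rho) (Z : Set E3)
    (hZ : ∀ e ∈ Z, e ∈ K ∧ ∃ xi1 xi2 : E3, ‖xi1‖ = 1 ∧ ‖xi2‖ = 1 ∧
      s ^ 2 ≤ 1 - (inner ℝ xi1 xi2) ^ 2 ∧
      (∀ y ∈ K, inner ℝ xi1 (y - e) ≤ eta) ∧ (∀ y ∈ K, inner ℝ xi2 (y - e) ≤ eta)) :
    ∃ N : Set E3, IsCompact N ∧ N ⊆ K ∧
      (∀ x ∈ K, ∀ e ∈ Z, dist x e ≤ Real.sqrt (2 * rho * eta) → x ∈ N) ∧
      volume N ≤ ENNReal.ofReal (9000 * Real.pi * eta / (s * rho)) * volume K := by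
  have hrho : 0 < rho := by linarith
  have hpos : 0 < 2 * rho * eta := by positivity
  have hsq : Real.sqrt (2 * rho * eta) ^ 2 = 2 * rho * eta := Real.sq_sqrt hpos.le
  have hd0 : 0 < Real.sqrt (2 * rho * eta) := Real.sqrt_pos.2 hpos
  have hle : Real.sqrt (2 * rho * eta) ≤ rho := by
    rw [Real.sqrt_le_left hrho.le]
    nlinarith
  obtain ⟨N, hNc, hNK, hNnear, hNvol⟩ := lemma_P K hKconv hKcomp c rho s (Real.sqrt (2 * rho * eta))
    eta hball hs hd0 hle hsq.ge Z hZ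
  refine ⟨N, hNc, hNK, hNnear, ?_⟩
  have hc : 4500 * Real.pi * Real.sqrt (2 * rho * eta) ^ 2 / (s * rho ^ 2)
      = 9000 * Real.pi * eta / (s * rho) := by
    rw [hsq]
    field_simp
    ring
  rw [hc] at hNvol
  exact hNvol

end Vale.Agent.H30.GenK
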