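import Vale.Agent.H5.P243.UPrism
import Vale.Agent.H30.GenK.Nearest

/-!
# The prisms `Sig_e` of LEMMA P (general-K project): volume lower bound

`sector_volume` : for unit `xi1`, `xi2`, `mu` in `E3` with `mu` orthogonal to `xi1`, `xi2` and
`s ^ 2 <= 1 - <xi1, xi2> ^ 2`, `0 <= s`, the prism
`{e + a xi1 + b xi2 + g mu : 0 <= a, 0 <= b, a + b <= rho, |g| <= d0}` has volume at least
`s * rho ^ 2 * d0`.
-/

open MeasureTheory Set
open scoped ENNReal RealInnerProductSpace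

namespace Vale.Agent.H30.GenK

open Vale.Agent.H5.P243

/-- The matrix with columns `v0`, `v1`, `v2`. -/
def colMat (v0 v1 v2 : E3) : Matrix (Fin 3) (Fin 3) ℝ :=
  Matrix.of (fun i j => (![v0, v1, v2] j) i)

theorem colMat_apply (v0 v1 v2 w : E3) :
    (Matrix.toEuclideanLin (colMat v0 v1 v2) : E3 →ₗ[ℝ] E3) w
      = w 0 • v0 + w 1 • v1 + w 2 • v2 := by
  ext i
  rw [uprism_apply]
  simp [colMat]
  ring

theorem inner_coord (x y : E3) : inner ℝ x y = x 0 * y 0 + x 1 * y 1 + x 2 * y 2 := by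
  simp [PiLp.inner_apply, Fin.sum_univ_three]
  ring

theorem colMat_det_sq (v0 v1 v2 : E3) (h0 : ‖v0‖ = 1) (h1 : ‖v1‖ = 1) (h2 : ‖v2‖ = 1)
    (h02 : inner ℝ v0 v2 = 0) (h12 : inner ℝ v1 v2 = 0) :
    (colMat v0 v1 v2).det ^ 2 = 1 - (inner ℝ v0 v1) ^ 2 := by
  have e00 : inner ℝ v0 v0 = 1 := by rw [real_inner_self_eq_norm_sq, h0]; norm_num
  have e11 : inner ℝ v1 v1 = 1 := by rw [real_inner_self_eq_norm_sq, h1]; norm_num
  have e22 : inner ℝ v2 v2 = 1 := by rw [real_inner_self_eq_norm_sq, h2]; norm_num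
  rw [inner_coord] at e00 e11 e22 h02 h12
  rw [inner_coord]
  have hdet : (colMat v0 v1 v2).det
      = v0 0 * v1 1 * v2 2 - v0 0 * v2 1 * v1 2 - v1 0 * v0 1 * v2 2 + v1 0 * v2 1 * v0 2
        + v2 0 * v0 1 * v1 2 - v2 0 * v1 1 * v0 2 := by
    rw [Matrix.det_fin_three]
    simp [colMat]
  rw [hdet]
  -- Lagrange identity with the orthogonality relations
  have key : (v0 0 * v1 1 * v2 2 - v0 0 * v2 1 * v1 2 - v1 0 * v0 1 * v2 2 + v1 0 * v2 1 * v0 2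
        + v2 0 * v0 1 * v1 2 - v2 0 * v1 1 * v0 2) ^ 2
      = (v0 0 * v0 0 + v0 1 * v0 1 + v0 2 * v0 2) * (v1 0 * v1 0 + v1 1 * v1 1 + v1 2 * v1 2)
          * (v2 0 * v2 0 + v2 1 * v2 1 + v2 2 * v2 2)
        + 2 * (v0 0 * v1 0 + v0 1 * v1 1 + v0 2 * v1 2) * (v0 0 * v2 0 + v0 1 * v2 1 + v0 2 * v2 2)
          * (v1 0 * v2 0 + v1 1 * v2 1 + v1 2 * v2 2)
        - (v0 0 * v0 0 + v0 1 * v0 1 + v0 2 * v0 2) * (v1 0 * v2 0 + v1 1 * v2 1 + v1 2 * v2 2) ^ 2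
        - (v1 0 * v1 0 + v1 1 * v1 1 + v1 2 * v1 2) * (v0 0 * v2 0 + v0 1 * v2 1 + v0 2 * v2 2) ^ 2
        - (v2 0 * v2 0 + v2 1 * v2 1 + v2 2 * v2 2) * (v0 0 * v1 0 + v0 1 * v1 1 + v0 2 * v1 2) ^ 2 := by
    ring
  rw [key, e00, e11, e22, h02, h12]
  ring

theorem box_volume (rho d0 : ℝ) (hrho : 0 ≤ rho) :
    volume {w : E3 | 0 ≤ w 0 ∧ w 0 ≤ rho ∧ 0 ≤ w 1 ∧ w 1 ≤ rho ∧ -d0 ≤ w 2 ∧ w 2 ≤ d0}
      = ENNReal.ofReal (2 * rho ^ 2 * d0) := by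
  have hset : {w : E3 | 0 ≤ w 0 ∧ w 0 ≤ rho ∧ 0 ≤ w 1 ∧ w 1 ≤ rho ∧ -d0 ≤ w 2 ∧ w 2 ≤ d0}
      = (WithLp.ofLp : E3 → (Fin 3 → ℝ)) ⁻¹' (Set.Icc ![0, 0, -d0] ![rho, rho, d0]) := by
    ext w
    simp only [Set.mem_ofPred_eq, mem_preimage, mem_Icc, Pi.le_def, Fin.forall_fin_succ]
    simp
    tauto
  rw [hset, (PiLp.volume_preserving_ofLp (Fin 3)).measure_preimage
    measurableSet_Icc.nullMeasurableSet, Real.volume_Icc_pi, Fin.prod_univ_three]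
  simp only [Matrix.cons_val_zero, Matrix.cons_val_one, Matrix.cons_val_two, sub_zero,
    Matrix.head_cons, Matrix.tail_cons, sub_neg_eq_add]
  rw [← ENNReal.ofReal_mul hrho, ← ENNReal.ofReal_mul (mul_nonneg hrho hrho)]
  congr 1
  ring

theorem prism_volume_ge (rho d0 : ℝ) (hrho : 0 ≤ rho) :
    ENNReal.ofReal (rho ^ 2 * d0)
      ≤ volume {w : E3 | 0 ≤ w 0 ∧ 0 ≤ w 1 ∧ w 0 + w 1 ≤ rho ∧ -d0 ≤ w 2 ∧ w 2 ≤ d0} := by
  set P : Set E3 := {w : E3 | 0 ≤ w 0 ∧ 0 ≤ w 1 ∧ w 0 + w 1 ≤ rho ∧ -d0 ≤ w 2 ∧ w 2 ≤ d0}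
    with hP
  have hD : (!![-1, 0, 0; 0, -1, 0; 0, 0, 1] : Matrix (Fin 3) (Fin 3) ℝ).det = 1 := by
    simp [Matrix.det_fin_three]
  have hsub : {w : E3 | 0 ≤ w 0 ∧ w 0 ≤ rho ∧ 0 ≤ w 1 ∧ w 1 ≤ rho ∧ -d0 ≤ w 2 ∧ w 2 ≤ d0} ⊆
      P ∪ ((fun x => (!₂[rho, rho, 0] : E3) + x) ''
        ((Matrix.toEuclideanLin (!![-1, 0, 0; 0, -1, 0; 0, 0, 1] : Matrix (Fin 3) (Fin 3) ℝ) :
          E3 →ₗ[ℝ] E3) '' P)) := by
    rintro w ⟨h0, h0', h1, h1', h2, h2'⟩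
    by_cases hsum : w 0 + w 1 ≤ rho
    · exact Or.inl ⟨h0, h1, hsum, h2, h2'⟩
    · right
      refine ⟨_, ⟨(!₂[rho - w 0, rho - w 1, w 2] : E3), ⟨?_, ?_, ?_, ?_, ?_⟩, rfl⟩, ?_⟩
      · show (0 : ℝ) ≤ rho - w 0
        linarith
      · show (0 : ℝ) ≤ rho - w 1
        linarith
      · show (rho - w 0) + (rho - w 1) ≤ rho
        push Not at hsum
        linarith
      · show -d0 ≤ w 2
        exact h2
      · show w 2 ≤ d0
        exact h2'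
      · ext i
        simp only [PiLp.add_apply]
        rw [uprism_apply]
        fin_cases i <;> simp
  have hvol : volume ((fun x => (!₂[rho, rho, 0] : E3) + x) ''
        ((Matrix.toEuclideanLin (!![-1, 0, 0; 0, -1, 0; 0, 0, 1] : Matrix (Fin 3) (Fin 3) ℝ) :
          E3 →ₗ[ℝ] E3) '' P)) = volume P := by
    rw [uprism_translate, uprism_image, hD]
    simp
  have h2 : ENNReal.ofReal (2 * rho ^ 2 * d0) ≤ volume P + volume P := by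
    rw [← box_volume rho d0 hrho]
    calc _ ≤ volume (P ∪ ((fun x => (!₂[rho, rho, 0] : E3) + x) ''
        ((Matrix.toEuclideanLin (!![-1, 0, 0; 0, -1, 0; 0, 0, 1] : Matrix (Fin 3) (Fin 3) ℝ) :
          E3 →ₗ[ℝ] E3) '' P))) := measure_mono hsub
      _ ≤ volume P + volume ((fun x => (!₂[rho, rho, 0] : E3) + x) ''
        ((Matrix.toEuclideanLin (!![-1, 0, 0; 0, -1, 0; 0, 0, 1] : Matrix (Fin 3) (Fin 3) ℝ) :
          E3 →ₗ[ℝ] E3) '' P)) := measure_union_le _ _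
      _ = volume P + volume P := by rw [hvol]
  have h3 : ENNReal.ofReal (2 * rho ^ 2 * d0) = 2 * ENNReal.ofReal (rho ^ 2 * d0) := by
    rw [mul_assoc, ENNReal.ofReal_mul (by norm_num : (0 : ℝ) ≤ 2)]
    simp
  rw [h3, ← two_mul] at h2
  exact (ENNReal.mul_le_mul_iff_right (by norm_num) (by norm_num)).1 h2

/-- The prism `Sig_e` of LEMMA P: the sector `{e + a xi1 + b xi2 : a, b >= 0, a + b <= rho}`
thickened by `[-d0, d0] mu`. -/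
def Sig (e xi1 xi2 mu : E3) (rho d0 : ℝ) : Set E3 :=
  {x : E3 | ∃ a b g : ℝ, 0 ≤ a ∧ 0 ≤ b ∧ a + b ≤ rho ∧ |g| ≤ d0 ∧
    x = e + a • xi1 + b • xi2 + g • mu}

/-- Volume of the prism: at least `s * rho ^ 2 * d0`. -/
theorem sector_volume (e xi1 xi2 mu : E3) (s rho d0 : ℝ)
    (h1 : ‖xi1‖ = 1) (h2 : ‖xi2‖ = 1) (hmu : ‖mu‖ = 1)
    (h1mu : inner ℝ xi1 mu = 0) (h2mu : inner ℝ xi2 mu = 0)
    (hs : 0 ≤ s) (hs2 : s ^ 2 ≤ 1 - (inner ℝ xi1 xi2) ^ 2) (hrho : 0 ≤ rho) :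
    ENNReal.ofReal (s * rho ^ 2 * d0) ≤ volume (Sig e xi1 xi2 mu rho d0) := by
  set P : Set E3 := {w : E3 | 0 ≤ w 0 ∧ 0 ≤ w 1 ∧ w 0 + w 1 ≤ rho ∧ -d0 ≤ w 2 ∧ w 2 ≤ d0}
    with hP
  have hset : (fun x => e + x) ''
      ((Matrix.toEuclideanLin (colMat xi1 xi2 mu) : E3 →ₗ[ℝ] E3) '' P)
      ⊆ Sig e xi1 xi2 mu rho d0 := by
    rintro _ ⟨_, ⟨w, ⟨hw0, hw1, hw01, hw2, hw2'⟩, rfl⟩, rfl⟩
    refine ⟨w 0, w 1, w 2, hw0, hw1, hw01, abs_le.2 ⟨hw2, hw2'⟩, ?_⟩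
    rw [colMat_apply]
    simp only [add_assoc]
  have hdet : s ≤ |(colMat xi1 xi2 mu).det| := by
    have := colMat_det_sq xi1 xi2 mu h1 h2 hmu h1mu h2mu
    have h3 : s ^ 2 ≤ (colMat xi1 xi2 mu).det ^ 2 := by rw [this]; exact hs2
    have h4 : |s| ≤ |(colMat xi1 xi2 mu).det| := sq_le_sq.1 h3
    rwa [abs_of_nonneg hs] at h4
  calc ENNReal.ofReal (s * rho ^ 2 * d0)
      = ENNReal.ofReal s * ENNReal.ofReal (rho ^ 2 * d0) := by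
        rw [mul_assoc, ENNReal.ofReal_mul hs]
    _ ≤ ENNReal.ofReal |(colMat xi1 xi2 mu).det| * volume P :=
        mul_le_mul' (ENNReal.ofReal_le_ofReal hdet) (prism_volume_ge rho d0 hrho)
    _ = volume ((fun x => e + x) ''
          ((Matrix.toEuclideanLin (colMat xi1 xi2 mu) : E3 →ₗ[ℝ] E3) '' P)) := by
        rw [uprism_translate, uprism_image]
    _ ≤ _ := measure_mono hset

/-- The prism is compact. -/
theorem sig_isCompact (e xi1 xi2 mu : E3) (rho d0 : ℝ) :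
    IsCompact (Sig e xi1 xi2 mu rho d0) := by
  have hc : IsCompact ((Set.Icc (0 : ℝ) rho ×ˢ Set.Icc (0 : ℝ) rho ×ˢ Set.Icc (-d0) d0) ∩
      {p : ℝ × ℝ × ℝ | p.1 + p.2.1 ≤ rho}) :=
    (isCompact_Icc.prod (isCompact_Icc.prod isCompact_Icc)).inter_right
      (isClosed_le (by fun_prop) continuous_const)
  have hf : Continuous (fun p : ℝ × ℝ × ℝ => e + p.1 • xi1 + p.2.1 • xi2 + p.2.2 • mu) := by
    fun_prop
  have heq : Sig e xi1 xi2 mu rho d0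
      = (fun p : ℝ × ℝ × ℝ => e + p.1 • xi1 + p.2.1 • xi2 + p.2.2 • mu) ''
        ((Set.Icc (0 : ℝ) rho ×ˢ Set.Icc (0 : ℝ) rho ×ˢ Set.Icc (-d0) d0) ∩
          {p : ℝ × ℝ × ℝ | p.1 + p.2.1 ≤ rho}) := by
    ext x
    constructor
    · rintro ⟨a, b, g, ha, hb, hab, hg, rfl⟩
      exact ⟨(a, b, g), ⟨⟨⟨ha, by linarith⟩, ⟨hb, by linarith⟩, abs_le.1 hg⟩, hab⟩, rfl⟩
    · rintro ⟨⟨a, b, g⟩, ⟨⟨⟨ha, _⟩, ⟨hb, _⟩, hg⟩, hab⟩, rfl⟩
      exact ⟨a, b, g, ha, hb, hab, abs_le.2 hg, rfl⟩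
  rw [heq]
  exact hc.image hf

theorem sig_measurable (e xi1 xi2 mu : E3) (rho d0 : ℝ) :
    MeasurableSet (Sig e xi1 xi2 mu rho d0) :=
  (sig_isCompact e xi1 xi2 mu rho d0).isClosed.measurableSet

/-- A unit vector orthogonal to two given vectors of `E3`. -/
theorem exists_unit_orth (n n' : E3) :
    ∃ u : E3, ‖u‖ = 1 ∧ inner ℝ n u = 0 ∧ inner ℝ n' u = 0 := by
  let f : E3 →ₗ[ℝ] ℝ × ℝ :=
    LinearMap.prod (innerSL ℝ n : E3 →ₗ[ℝ] ℝ) (innerSL ℝ n' : E3 →ₗ[ℝ] ℝ)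
  have hlt : Module.finrank ℝ (ℝ × ℝ) < Module.finrank ℝ E3 := by
    simp
  have hker : LinearMap.ker f ≠ ⊥ := LinearMap.ker_ne_bot_of_finrank_lt hlt
  obtain ⟨v, hv, hv0⟩ := Submodule.exists_mem_ne_zero_of_ne_bot hker
  have hfv : f v = 0 := hv
  have h1 : inner ℝ n v = 0 := by
    have := congrArg Prod.fst hfv
    simpa [f] using this
  have h2 : inner ℝ n' v = 0 := by
    have := congrArg Prod.snd hfv
    simpa [f] using this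
  have hnv : ‖v‖ ≠ 0 := norm_ne_zero_iff.mpr hv0
  refine ⟨‖v‖⁻¹ • v, ?_, ?_, ?_⟩
  · rw [norm_smul, norm_inv, norm_norm, inv_mul_cancel₀ hnv]
  · rw [inner_smul_right, h1, mul_zero]
  · rw [inner_smul_right, h2, mul_zero]

/-- The prism at a point `e` of a convex set `K` containing the ball `B(c, rho)` lies in the
homothetic copy `c + 3 (K - c)` as soon as `d0 <= rho`. -/
theorem sig_subset_homothety (K : Set E3) (hK : Convex ℝ K) (c e xi1 xi2 mu : E3) (rho d0 : ℝ)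
    (hball : Metric.closedBall c rho ⊆ K) (he : e ∈ K)
    (h1 : ‖xi1‖ = 1) (h2 : ‖xi2‖ = 1) (hmu : ‖mu‖ = 1) (hd0 : d0 ≤ rho) :
    Sig e xi1 xi2 mu rho d0 ⊆ AffineMap.homothety c (3 : ℝ) '' K := by
  rintro x ⟨a, b, g, ha, hb, hab, hg, rfl⟩
  have hvn : ‖a • xi1 + b • xi2 + g • mu‖ ≤ 2 * rho := by
    calc ‖a • xi1 + b • xi2 + g • mu‖ ≤ ‖a • xi1‖ + ‖b • xi2‖ + ‖g • mu‖ := norm_add₃_le
      _ = a + b + |g| := by
        rw [norm_smul, norm_smul, norm_smul, h1, h2, hmu, Real.norm_of_nonneg ha,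
          Real.norm_of_nonneg hb, Real.norm_eq_abs]
        ring
      _ ≤ 2 * rho := by linarith
  have hin : c + (1 / 2 : ℝ) • (a • xi1 + b • xi2 + g • mu) ∈ K := by
    apply hball
    rw [Metric.mem_closedBall, dist_eq_norm, add_sub_cancel_left, norm_smul]
    rw [Real.norm_of_nonneg (by norm_num : (0 : ℝ) ≤ 1 / 2)]
    linarith
  refine ⟨(1 / 3 : ℝ) • e + (2 / 3 : ℝ) • (c + (1 / 2 : ℝ) • (a • xi1 + b • xi2 + g • mu)),
    hK he hin (by norm_num) (by norm_num) (by norm_num), ?_⟩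
  rw [AffineMap.homothety_apply]
  simp only [vsub_eq_sub, vadd_eq_add]
  module

theorem volume_homothety_three (c : E3) (K : Set E3) :
    volume (AffineMap.homothety c (3 : ℝ) '' K) = 27 * volume K := by
  rw [Measure.addHaar_image_homothety]
  have h3 : Module.finrank ℝ E3 = 3 := by simp
  rw [h3]
  norm_num

/-- Two prisms at points `e`, `e'` of `K` carrying caps of height `eta` with a common point:
`dist e e' <= 4 d0`. -/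
theorem sig_apart (K : Set E3) (hcl : IsClosed K) (hconv : Convex ℝ K)
    (e e' xi1 xi2 mu xi1' xi2' mu' : E3) (rho d0 eta : ℝ)
    (he : e ∈ K) (he' : e' ∈ K) (hmu : ‖mu‖ = 1) (hmu' : ‖mu'‖ = 1)
    (hc1 : ∀ y ∈ K, inner ℝ xi1 (y - e) ≤ eta) (hc2 : ∀ y ∈ K, inner ℝ xi2 (y - e) ≤ eta)
    (hc1' : ∀ y ∈ K, inner ℝ xi1' (y - e') ≤ eta) (hc2' : ∀ y ∈ K, inner ℝ xi2' (y - e') ≤ eta)
    (hd0 : 0 ≤ d0) (hrd : 2 * rho * eta ≤ d0 ^ 2)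
    (h : (Sig e xi1 xi2 mu rho d0 ∩ Sig e' xi1' xi2' mu' rho d0).Nonempty) :
    dist e e' ≤ 4 * d0 := by
  obtain ⟨x, ⟨a, b, g, ha, hb, hab, hg, hx⟩, ⟨a', b', g', ha', hb', hab', hg', hx'⟩⟩ := h
  refine sharp_sectors_apart K e e' xi1 xi2 xi1' xi2' (g • mu) (g' • mu') eta rho d0 a b a' b'
    hcl hconv he he' hc1 hc2 hc1' hc2' ha hb hab ha' hb' hab' hd0 hrd ?_ ?_ ?_
  · rw [norm_smul, hmu, mul_one, Real.norm_eq_abs]; exact hg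
  · rw [norm_smul, hmu', mul_one, Real.norm_eq_abs]; exact hg'
  · rw [← hx, ← hx']

end Vale.Agent.H30.GenK
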